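import Vale.Agent.P192.R2.H360.R.Defs

set_option linter.all false

/-!
# P192, row R3: the site cut
-/

namespace Vale.Agent.P192.R2.H431

open Vale.Agent.P192 Vale.Agent.P192.H437 Vale.Agent.P192.H593 Vale.Agent.P192.R2.H577
open Vale.Agent.P192.R2.H360.R
open scoped Pointwise

universe u v

/-- A chain inside a set with at most `N` points, with steps of length at most `R`, joins points at
distance at most `R * N`. -/
theorem dist_of_chain {X : Type u} {Γ : SimpleGraph X} (hc : Γ.Connected) (B : Set X) (R N : ℕ)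
    (hfin : B.Finite) (hN : Nat.card B ≤ N) {a b : X} (ha : a ∈ B)
    (h : Relation.ReflTransGen (fun a b => a ∈ B ∧ b ∈ B ∧ Γ.dist a b ≤ R) a b) :
    Γ.dist a b ≤ R * N := by
  classical
  haveI : Fintype B := hfin.fintype
  rw [Nat.card_eq_fintype_card] at hN
  let Λ : SimpleGraph B := SimpleGraph.fromRel fun a b => Γ.dist a.1 b.1 ≤ R
  have hb : ∃ hb : b ∈ B, Λ.Reachable ⟨a, ha⟩ ⟨b, hb⟩ := by
    induction h with
    | refl => exact ⟨ha, SimpleGraph.Reachable.refl _⟩
    | @tail c d _ hcd ih =>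
      obtain ⟨hc', hr⟩ := ih
      obtain ⟨h1, h2, h3⟩ := hcd
      refine ⟨h2, ?_⟩
      by_cases e : c = d
      · subst e; exact hr
      · refine hr.trans (SimpleGraph.Adj.reachable ?_)
        rw [SimpleGraph.fromRel_adj]
        exact ⟨fun h => e (congrArg Subtype.val h), Or.inl h3⟩
  obtain ⟨hb, ⟨p⟩⟩ := hb
  have hlen : (p.toPath : Λ.Walk ⟨a, ha⟩ ⟨b, hb⟩).length < Fintype.card B := p.toPath.2.length_lt
  have key : ∀ {u v : B} (q : Λ.Walk u v), Γ.dist u.1 v.1 ≤ R * q.length := by
    intro u v q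
    induction q with
    | nil => simp
    | @cons u v w h q ih =>
      rw [SimpleGraph.fromRel_adj] at h
      have h4 : Γ.dist u.1 v.1 ≤ R := by
        rcases h.2 with h | h
        · exact h
        · rw [SimpleGraph.dist_comm]; exact h
      have h5 := hc.dist_triangle (u := u.1) (v := v.1) (w := w.1)
      rw [SimpleGraph.Walk.length_cons, Nat.mul_add, Nat.mul_one]
      omega
  exact (key (p.toPath : Λ.Walk ⟨a, ha⟩ ⟨b, hb⟩)).trans (Nat.mul_le_mul_left _ (by omega))

/-- Along a word of length `n` the head moves in `T ^ n` and the tape changes in `T ^ n` around the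
head only. -/
theorem along {G : Type v} [Group G] {S : Set G} {H A Q : Type} [Group H] [DecidableEq H]
    {T : Finset H} {X : Type u} [MulAction G X] {hd : X → H} {tp : X → H → A} {st : X → Q}
    (hloc : Loc S T X hd tp st) (a : X) (w : List G) (hw : ∀ s ∈ w, s ∈ S ∨ s⁻¹ ∈ S) :
    (hd a)⁻¹ * hd (w.prod • a) ∈ T ^ w.length ∧
      ∀ q, tp (w.prod • a) q ≠ tp a q → (hd a)⁻¹ * q ∈ T ^ w.length := by
  induction w with
  | nil => simp
  | cons s w ih =>
    obtain ⟨h1, h2⟩ := ih fun t ht => hw t (by simp [ht])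
    have hs := hw s (by simp)
    rw [List.prod_cons, mul_smul, List.length_cons, pow_succ]
    refine ⟨?_, fun q hq => ?_⟩
    · have h3 := Finset.mul_mem_mul h1 (hloc.move (w.prod • a) s hs)
      rwa [mul_assoc, mul_inv_cancel_left] at h3
    · by_cases h4 : tp (w.prod • a) q = tp a q
      · have h5 := hloc.write (w.prod • a) s q hs (by rw [h4]; exact hq)
        have h3 := Finset.mul_mem_mul h1 h5
        rwa [mul_assoc, mul_inv_cancel_left] at h3
      · have h3 := Finset.mul_mem_mul (h2 q h4) hloc.one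
        rwa [mul_one] at h3

theorem r3 : R1.{u, v} → R3.{u, v} := by
  intro h1 G _ _ hG S hSf hS H A Q _ _ _ _ T
  obtain ⟨R, hR⟩ := h1 G hG S hSf hS
  let W : Finset H := T * T ^ R
  let N : ℕ := Nat.card (T × Q × (W → A))
  refine ⟨N + R * N, ?_⟩
  intro X _ _ hd tp st hloc x y p hp
  obtain ⟨D, hxD, hyD, hDF, hlink⟩ := hR X {z | tp z p = tp x p} x y rfl fun h => hp h.symm
  haveI : Nonempty X := ⟨x⟩
  have hc := sch_connected (X := X) hS
  have hsite : ∀ z ∈ fb S D, (hd z)⁻¹ * p ∈ T := by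
    intro z hz
    obtain ⟨s, hs, h | h⟩ := hDF hz
    · refine hloc.write z s p hs fun e => h.2 ?_
      change tp (s • z) p = tp x p
      rw [e]; exact h.1
    · refine hloc.write z s p hs fun e => h.1 ?_
      change tp z p = tp x p
      rw [← e]; exact h.2
  -- consecutive points have the same tape off `p W`
  have hstep : ∀ a ∈ fb S D, ∀ b, hop S R a b → ∀ q, tp b q ≠ tp a q → p⁻¹ * q ∈ W := by
    intro a ha b hab q hq
    obtain ⟨w, hw, hlen, rfl⟩ := hab
    have h2 := (along hloc a w hw).2 q hq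
    have h3 : T ^ w.length ⊆ T ^ R := Finset.pow_subset_pow_right hloc.one hlen
    have h4 := hloc.inv _ (hsite a ha)
    have h5 := Finset.mul_mem_mul h4 (h3 h2)
    rw [mul_inv_rev, inv_inv, mul_assoc, mul_inv_cancel_left] at h5
    exact h5
  have hagree : ∀ a b, linked S R (fb S D) a b → ∀ q, p⁻¹ * q ∉ W → tp b q = tp a q := by
    intro a b hab q hq
    induction hab with
    | refl => rfl
    | @tail c d _ hcd ih =>
      obtain ⟨h5, -, h6⟩ := hcd
      rw [← ih]
      by_contra h7
      exact hq (hstep c h5 d h6 q h7)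
  let Φ : fb S D → T × Q × (W → A) := fun z =>
    (⟨(hd z.1)⁻¹ * p, hsite z.1 z.2⟩, st z.1, fun w => tp z.1 (p * w.1))
  have hΦ : Function.Injective Φ := by
    intro z z' h
    have e1 : (hd z.1)⁻¹ * p = (hd z'.1)⁻¹ * p :=
      congrArg (fun t : T × Q × (W → A) => (t.1 : H)) h
    have e2 : st z.1 = st z'.1 := congrArg (fun t : T × Q × (W → A) => t.2.1) h
    have e3 : ∀ w : W, tp z.1 (p * w.1) = tp z'.1 (p * w.1) := fun w =>
      congrFun (congrArg (fun t : T × Q × (W → A) => t.2.2) h) w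
    apply Subtype.ext
    refine hloc.inj z.1 z'.1 (inv_injective (mul_right_cancel e1)) e2 ?_
    funext q
    by_cases hq : p⁻¹ * q ∈ W
    · have := e3 ⟨_, hq⟩
      rwa [mul_inv_cancel_left] at this
    · exact (hagree z.1 z'.1 (hlink z.1 z.2 z'.1 z'.2) q hq).symm
  haveI hfin : Finite (fb S D) := Finite.of_injective Φ hΦ
  have hcard : Nat.card (fb S D) ≤ N := Nat.card_le_card_of_injective Φ hΦ
  refine ⟨D, hxD, hyD, ?_, hsite, ?_⟩
  · have h8 : (fb S D).encard = (Nat.card (fb S D) : ℕ∞) := by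
      rw [← (Set.toFinite (fb S D)).cast_ncard_eq, Nat.card_coe_set_eq]
    rw [h8]
    exact_mod_cast hcard.trans (Nat.le_add_right _ _)
  · intro a ha b hb
    rw [hop_iff hc]
    refine (dist_of_chain hc (fb S D) R N (Set.toFinite _) hcard ha ?_).trans
      (Nat.le_add_left _ _)
    exact Relation.ReflTransGen.mono (fun a b hab => ⟨hab.1, hab.2.1, (hop_iff hc).1 hab.2.2⟩) _ _
      (hlink a ha b hb)

end Vale.Agent.P192.R2.H431
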